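import Vale.Agent.Lib.P063.Clique

open Finset

namespace Vale.Agent.Lib.P063

theorem clique_width_ge {n r k : ℕ} (hrk : r ≤ k) (hkn : k ≤ n) {ε : ℝ} (hε0 : 0 < ε)
    (hε1 : ε < 1 / 2) {p0 : ℝ}
    (hfm : (n.choose k : ℝ) * p0 ^ (k.choose r) < ε) :
    p0 * (Real.log ((1 - ε) / ε) / (k.choose r : ℕ)) ≤ width ε (cliqueProp n r k) := by
  have huniv := univ_mem_cliqueProp (r := r) hkn
  have hMpos : 0 < k.choose r := Nat.choose_pos hrk
  have h1 := width_ge (cliqueProp_upper (n := n) (r := r) k) huniv hMpos cliqueProp_minterm hε0 hε1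
  have h2 : p0 ≤ pcrit ε (cliqueProp n r k) := by
    apply le_csInf (pcrit_set_nonempty huniv (by linarith))
    rintro p ⟨hp0', hp1, hp2⟩
    by_contra hlt
    rw [not_le] at hlt
    have h3 := mu_cliqueProp_le (n := n) (r := r) (k := k) hp0' hp1
    have h4 : (n.choose k : ℝ) * p ^ (k.choose r) ≤ (n.choose k : ℝ) * p0 ^ (k.choose r) := by
      apply mul_le_mul_of_nonneg_left _ (Nat.cast_nonneg _)
      exact pow_le_pow_left₀ hp0' hlt.le _
    linarith
  have hratio : 1 < (1 - ε) / ε := by rw [lt_div_iff₀ hε0]; linarith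
  have hΛpos : 0 < Real.log ((1 - ε) / ε) := Real.log_pos hratio
  have h5 : 0 ≤ Real.log ((1 - ε) / ε) / (k.choose r : ℕ) := by positivity
  calc p0 * (Real.log ((1 - ε) / ε) / (k.choose r : ℕ))
      ≤ pcrit ε (cliqueProp n r k) * (Real.log ((1 - ε) / ε) / (k.choose r : ℕ)) :=
        mul_le_mul_of_nonneg_right h2 h5
    _ ≤ _ := h1

/-- The numerical heart: with `r = s + 1`, `A = r * r!`, `L = log n`, `j = ⌈(A L)^(1/s)⌉`,
`k = j + s`. -/
theorem numerics (s : ℕ) (hs : 1 ≤ s) (n : ℕ) (hn2 : 2 ≤ n) {ε : ℝ} (hε0 : 0 < ε)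
    (hA1 : 1 ≤ ((s + 1 : ℕ) : ℝ) * ((s + 1).factorial : ℝ) * Real.log n)
    (hnε : 1 / ε < n)
    (hbig : ((s + 1 : ℕ) : ℝ) * ((s + 1).factorial : ℝ) * Real.log n + 1 + s ≤ n) :
    ∃ k : ℕ, s + 1 ≤ k ∧ k ≤ n ∧
      (n.choose k : ℝ) * (Real.exp (-2)) ^ (k.choose (s + 1)) < ε ∧
      ((k.choose (s + 1) : ℕ) : ℝ) ≤ (2 * ((s + 1 : ℕ) : ℝ)) ^ (s + 1) *
        (((s + 1 : ℕ) : ℝ) * ((s + 1).factorial : ℝ)) ^ (((s + 1 : ℕ) : ℝ) / s) *
        (Real.log n) ^ (((s + 1 : ℕ) : ℝ) / s) := by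
  set r : ℕ := s + 1 with hr
  set A : ℝ := (r : ℝ) * (r.factorial : ℝ) with hA
  set L : ℝ := Real.log n with hL
  have hsR : (0 : ℝ) < s := by exact_mod_cast hs
  have hnR : (2 : ℝ) ≤ n := by exact_mod_cast hn2
  have hLpos : 0 < L := Real.log_pos (by linarith)
  have hApos : 0 < A := by positivity
  have hAL : 0 < A * L := mul_pos hApos hLpos
  set B : ℝ := (A * L) ^ ((1 : ℝ) / s) with hB
  have hB1 : 1 ≤ B := Real.one_le_rpow hA1 (by positivity)
  have hBle : B ≤ A * L := by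
    calc B ≤ (A * L) ^ (1 : ℝ) := by
          apply Real.rpow_le_rpow_of_exponent_le hA1
          rw [div_le_one hsR]
          exact_mod_cast hs
      _ = A * L := Real.rpow_one _
  have hBs : B ^ s = A * L := by
    rw [hB, ← Real.rpow_natCast, ← Real.rpow_mul hAL.le]
    have : (1 : ℝ) / s * s = 1 := by field_simp
    rw [this, Real.rpow_one]
  have hBr : B ^ r = A ^ ((r : ℝ) / s) * L ^ ((r : ℝ) / s) := by
    rw [hB, ← Real.rpow_natCast, ← Real.rpow_mul hAL.le, ← Real.mul_rpow hApos.le hLpos.le]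
    congr 1
    ring
  set j : ℕ := ⌈B⌉₊ with hj
  have hjB : B ≤ j := Nat.le_ceil B
  have hjB1 : (j : ℝ) < B + 1 := Nat.ceil_lt_add_one (by linarith)
  have hj1 : 1 ≤ j := Nat.ceil_pos.2 (by linarith)
  have hj1R : (1 : ℝ) ≤ j := by exact_mod_cast hj1
  refine ⟨j + s, by omega, ?_, ?_, ?_⟩
  · -- k ≤ n
    have : ((j + s : ℕ) : ℝ) ≤ n := by
      push_cast
      linarith
    exact_mod_cast this
  · -- first moment
    have hkr : j + s + 1 - r = j := by omega
    have h1 := Nat.pow_le_choose (α := ℝ) r (j + s)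
    rw [hkr] at h1
    have hfac : (0 : ℝ) < (r.factorial : ℝ) := by positivity
    have h2 : ((j + s : ℕ) : ℝ) * L ≤ ((j + s).choose r : ℝ) := by
      have h3 : (j : ℝ) ^ r = j * (j : ℝ) ^ s := by rw [hr, pow_succ]; ring
      have h4 : A * L ≤ (j : ℝ) ^ s := by
        rw [← hBs]
        exact pow_le_pow_left₀ (by linarith) hjB _
      have h5 : ((j + s : ℕ) : ℝ) ≤ j * r := by
        rw [hr]
        push_cast
        nlinarith
      calc ((j + s : ℕ) : ℝ) * L ≤ (j * r) * L := mul_le_mul_of_nonneg_right h5 hLpos.le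
        _ = j * (A * L) / (r.factorial : ℝ) := by rw [hA]; field_simp
        _ ≤ j * (j : ℝ) ^ s / (r.factorial : ℝ) := by
            apply div_le_div_of_nonneg_right _ hfac.le
            exact mul_le_mul_of_nonneg_left h4 (by linarith)
        _ = (j : ℝ) ^ r / (r.factorial : ℝ) := by rw [h3]
        _ ≤ _ := h1
    have hnpos : (0 : ℝ) < n := by linarith
    have h6 : (n.choose (j + s) : ℝ) ≤ Real.exp (((j + s : ℕ) : ℝ) * L) := by
      rw [Real.exp_nat_mul, hL, Real.exp_log hnpos]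
      exact_mod_cast Nat.choose_le_pow n (j + s)
    have h7 : (Real.exp (-2)) ^ ((j + s).choose r) = Real.exp (-(2 * ((j + s).choose r : ℝ))) := by
      rw [← Real.exp_nat_mul]
      congr 1
      ring
    rw [h7]
    have hk1 : (1 : ℝ) ≤ ((j + s : ℕ) : ℝ) := by
      push_cast
      linarith
    calc (n.choose (j + s) : ℝ) * Real.exp (-(2 * ((j + s).choose r : ℝ)))
        ≤ Real.exp (((j + s : ℕ) : ℝ) * L) * Real.exp (-(2 * ((j + s).choose r : ℝ))) :=
          mul_le_mul_of_nonneg_right h6 (Real.exp_pos _).le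
      _ = Real.exp (((j + s : ℕ) : ℝ) * L - 2 * ((j + s).choose r : ℝ)) := by
          rw [← Real.exp_add]; congr 1
      _ ≤ Real.exp (-L) := by
          apply Real.exp_le_exp.2
          nlinarith
      _ = 1 / n := by rw [Real.exp_neg, hL, Real.exp_log hnpos, one_div]
      _ < ε := by
          rw [div_lt_iff₀ hnpos]
          rw [div_lt_iff₀ hε0] at hnε
          linarith
  · -- upper bound for M
    have h1 : ((j + s).choose r : ℝ) ≤ ((j + s : ℕ) : ℝ) ^ r := by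
      exact_mod_cast Nat.choose_le_pow (j + s) r
    have h5 : ((j + s : ℕ) : ℝ) ≤ j * r := by
      rw [hr]
      push_cast
      nlinarith
    have h6 : (j : ℝ) * r ≤ 2 * r * B := by
      have : (j : ℝ) ≤ 2 * B := by linarith
      have hr0 : (0 : ℝ) ≤ r := Nat.cast_nonneg _
      nlinarith
    calc ((j + s).choose r : ℝ) ≤ ((j + s : ℕ) : ℝ) ^ r := h1
      _ ≤ (2 * r * B) ^ r := pow_le_pow_left₀ (Nat.cast_nonneg _) (h5.trans h6) _
      _ = (2 * (r : ℝ)) ^ r * B ^ r := by rw [mul_pow]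
      _ = _ := by rw [hBr]; ring

end Vale.Agent.Lib.P063
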