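import Vale.Agent.Lib.P063.Defs

open Finset

namespace Vale.Agent.Lib.P063

section general
variable {α : Type*} [Fintype α] [DecidableEq α]

omit [Fintype α] in
theorem sum_Icc_eq (S U : Finset α) (hSU : S ⊆ U) (F : Finset α → ℝ) :
    ∑ H ∈ Icc S U, F H = ∑ t ∈ (U \ S).powerset, F (S ∪ t) := by
  rw [Icc_eq_image_powerset hSU, sum_image]
  intro t ht t' ht' h
  simp only [coe_powerset, Set.mem_preimage, Set.mem_powerset_iff, coe_subset] at ht ht'
  simp only at h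
  have d1 : Disjoint S t := disjoint_of_subset_right ht disjoint_sdiff
  have d2 : Disjoint S t' := disjoint_of_subset_right ht' disjoint_sdiff
  calc t = (S ∪ t) \ S := by rw [union_sdiff_cancel_left d1]
    _ = (S ∪ t') \ S := by rw [h]
    _ = t' := by rw [union_sdiff_cancel_left d2]

omit [Fintype α] in
theorem card_union_sub {S U t : Finset α} (ht : t ∈ (U \ S).powerset) :
    #(S ∪ t) = #S + #t := by
  rw [mem_powerset] at ht
  exact card_union_of_disjoint (disjoint_of_subset_right ht disjoint_sdiff)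

/-- sum of `a^|H| b^(|U|-|H|)` over the interval `[S,U]` of the Boolean lattice -/
theorem sum_Icc_pow (S U : Finset α) (hSU : S ⊆ U) (a b : ℝ) :
    ∑ H ∈ Icc S U, a ^ #H * b ^ (#U - #H) = a ^ #S * (a + b) ^ (#U - #S) := by
  rw [sum_Icc_eq S U hSU, ← card_sdiff_of_subset hSU, ← sum_pow_mul_eq_add_pow, mul_sum]
  apply sum_congr rfl
  intro t ht
  rw [card_union_sub ht, card_sdiff_of_subset hSU, pow_add, mul_assoc, Nat.sub_add_eq]

omit [DecidableEq α] in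
theorem mu_nonneg {p : ℝ} (h0 : 0 ≤ p) (h1 : p ≤ 1) (𝒜 : Finset (Finset α)) : 0 ≤ mu p 𝒜 :=
  sum_nonneg (fun _ _ => mul_nonneg (pow_nonneg h0 _) (pow_nonneg (by linarith) _))

/-- the probability of containing a fixed set `K` is `p^|K|` -/
theorem mu_Icc (p : ℝ) (K : Finset α) : mu p (Icc K univ) = p ^ #K := by
  unfold mu
  have := sum_Icc_pow K univ (subset_univ _) p (1 - p)
  rw [card_univ] at this
  rw [this]
  simp

/-- thinning identity -/
theorem thinning (p θ : ℝ) (H : Finset α) :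
    (θ * p) ^ #H * (1 - θ * p) ^ (Fintype.card α - #H) =
      ∑ H' ∈ Icc H univ, (p ^ #H' * (1 - p) ^ (Fintype.card α - #H')) *
        (θ ^ #H * (1 - θ) ^ (#H' - #H)) := by
  rw [sum_Icc_eq H univ (subset_univ _)]
  have h1 : (1 - θ * p) = p * (1 - θ) + (1 - p) := by ring
  have h2 : Fintype.card α - #H = #(univ \ H) := by
    rw [card_sdiff_of_subset (subset_univ _), card_univ]
  rw [h1, h2, ← sum_pow_mul_eq_add_pow, mul_sum]
  apply sum_congr rfl
  intro t ht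
  rw [card_union_sub ht, ← h2, Nat.add_sub_cancel_left, Nat.sub_add_eq, mul_pow, mul_pow, pow_add]
  ring

/-- **Coupling inequality.**  If every member of the increasing family `𝒜` contains a member with at
most `M` elements, then `μ_{θ p}(𝒜) ≥ θ^M μ_p(𝒜)`. -/
theorem mu_thin_ge {𝒜 : Finset (Finset α)} (hup : IsUpperSet (𝒜 : Set (Finset α))) {M : ℕ}
    (hM : ∀ H ∈ 𝒜, ∃ S ∈ 𝒜, S ⊆ H ∧ #S ≤ M) {p θ : ℝ} (hp0 : 0 ≤ p) (hp1 : p ≤ 1)
    (hθ0 : 0 ≤ θ) (hθ1 : θ ≤ 1) : θ ^ M * mu p 𝒜 ≤ mu (θ * p) 𝒜 := by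
  have h1 : mu (θ * p) 𝒜 = ∑ H' : Finset α, (p ^ #H' * (1 - p) ^ (Fintype.card α - #H')) *
      ∑ H ∈ 𝒜 with H ⊆ H', (θ ^ #H * (1 - θ) ^ (#H' - #H)) := by
    unfold mu
    simp_rw [thinning p θ, mul_sum]
    apply sum_comm'
    intro H H'
    simp only [mem_Icc, mem_filter, mem_univ, subset_univ, and_true]
  rw [h1]
  unfold mu
  rw [mul_sum]
  have hw : ∀ H' : Finset α, 0 ≤ p ^ #H' * (1 - p) ^ (Fintype.card α - #H') :=
    fun H' => mul_nonneg (pow_nonneg hp0 _) (pow_nonneg (by linarith) _)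
  have hk : ∀ H H' : Finset α, 0 ≤ θ ^ #H * (1 - θ) ^ (#H' - #H) :=
    fun H H' => mul_nonneg (pow_nonneg hθ0 _) (pow_nonneg (by linarith) _)
  calc ∑ H' ∈ 𝒜, θ ^ M * (p ^ #H' * (1 - p) ^ (Fintype.card α - #H'))
      ≤ ∑ H' ∈ 𝒜, (p ^ #H' * (1 - p) ^ (Fintype.card α - #H')) *
          ∑ H ∈ 𝒜 with H ⊆ H', (θ ^ #H * (1 - θ) ^ (#H' - #H)) := by
        apply sum_le_sum
        intro H' hH'
        rw [mul_comm]
        apply mul_le_mul_of_nonneg_left _ (hw H')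
        obtain ⟨S, hS, hSH, hSM⟩ := hM H' hH'
        calc θ ^ M ≤ θ ^ #S := pow_le_pow_of_le_one hθ0 hθ1 hSM
          _ = ∑ H ∈ Icc S H', θ ^ #H * (1 - θ) ^ (#H' - #H) := by
              rw [sum_Icc_pow S H' hSH]; simp
          _ ≤ ∑ H ∈ 𝒜 with H ⊆ H', (θ ^ #H * (1 - θ) ^ (#H' - #H)) := by
              apply sum_le_sum_of_subset_of_nonneg
              · intro H hH
                rw [mem_Icc] at hH
                rw [mem_filter]
                exact ⟨hup hH.1 hS, hH.2⟩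
              · intro H _ _
                exact hk H H'
    _ ≤ _ := by
        apply sum_le_sum_of_subset_of_nonneg (subset_univ _)
        intro H' _ _
        exact mul_nonneg (hw H') (sum_nonneg (fun H _ => hk H H'))

theorem mu_one {𝒜 : Finset (Finset α)} (huniv : univ ∈ 𝒜) : mu 1 𝒜 = 1 := by
  unfold mu
  rw [sum_eq_single univ]
  · simp
  · intro H _ hH
    have hlt : #H < Fintype.card α := by
      rw [← card_univ]
      exact card_lt_card (ssubset_univ_iff.2 hH)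
    rw [sub_self, zero_pow (by omega), mul_zero]
  · intro h
    exact absurd huniv h

theorem pcrit_set_nonempty {𝒜 : Finset (Finset α)} (huniv : univ ∈ 𝒜) {a : ℝ} (ha : a ≤ 1) :
    {p : ℝ | 0 ≤ p ∧ p ≤ 1 ∧ a ≤ mu p 𝒜}.Nonempty :=
  ⟨1, by norm_num, le_refl _, by rw [mu_one huniv]; exact ha⟩

omit [DecidableEq α] in
theorem pcrit_set_bdd (𝒜 : Finset (Finset α)) (a : ℝ) :
    BddBelow {p : ℝ | 0 ≤ p ∧ p ≤ 1 ∧ a ≤ mu p 𝒜} :=
  ⟨0, fun _ hp => hp.1⟩

theorem pcrit_nonneg {𝒜 : Finset (Finset α)} (huniv : univ ∈ 𝒜) {a : ℝ} (ha : a ≤ 1) :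
    0 ≤ pcrit a 𝒜 :=
  le_csInf (pcrit_set_nonempty huniv ha) (fun _ hp => hp.1)

/-- **General lower bound for the threshold width.**  If every member of the increasing family `𝒜`
contains a member with at most `M` elements then
`w_ε(𝒜) ≥ p_ε(𝒜) * log((1-ε)/ε) / M`. -/
theorem width_ge {𝒜 : Finset (Finset α)} (hup : IsUpperSet (𝒜 : Set (Finset α)))
    (huniv : univ ∈ 𝒜) {M : ℕ} (hMpos : 0 < M)
    (hM : ∀ H ∈ 𝒜, ∃ S ∈ 𝒜, S ⊆ H ∧ #S ≤ M) {ε : ℝ} (hε0 : 0 < ε) (hε1 : ε < 1 / 2) :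
    pcrit ε 𝒜 * (Real.log ((1 - ε) / ε) / M) ≤ width ε 𝒜 := by
  set Λ := Real.log ((1 - ε) / ε) with hΛ
  have hratio : 1 < (1 - ε) / ε := by rw [lt_div_iff₀ hε0]; linarith
  have hΛpos : 0 < Λ := Real.log_pos hratio
  have hMR : (0 : ℝ) < M := by exact_mod_cast hMpos
  set θ := Real.exp (-(Λ / M)) with hθ
  have hθ0 : 0 < θ := Real.exp_pos _
  have hθ1 : θ ≤ 1 := by
    rw [hθ, Real.exp_le_one_iff]
    have : 0 < Λ / M := div_pos hΛpos hMR
    linarith
  have hθM : θ ^ M = ε / (1 - ε) := by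
    rw [hθ, ← Real.exp_nat_mul]
    have : (M : ℝ) * -(Λ / M) = -Λ := by field_simp
    rw [this, Real.exp_neg, hΛ, Real.exp_log (by linarith), inv_div]
  -- key: p_ε ≤ θ * p_{1-ε}
  have key : pcrit ε 𝒜 ≤ θ * pcrit (1 - ε) 𝒜 := by
    have h1 : pcrit ε 𝒜 / θ ≤ pcrit (1 - ε) 𝒜 := by
      apply le_csInf (pcrit_set_nonempty huniv (by linarith))
      rintro p' ⟨hp0, hp1, hp2⟩
      rw [div_le_iff₀ hθ0, mul_comm]
      apply csInf_le (pcrit_set_bdd _ _)
      refine ⟨mul_nonneg hθ0.le hp0, ?_, ?_⟩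
      · calc θ * p' ≤ 1 * 1 := mul_le_mul hθ1 hp1 hp0 (by norm_num)
          _ = 1 := by norm_num
      · have h3 := mu_thin_ge hup hM hp0 hp1 hθ0.le hθ1
        rw [hθM] at h3
        have h4 : ε / (1 - ε) * (1 - ε) ≤ ε / (1 - ε) * mu p' 𝒜 :=
          mul_le_mul_of_nonneg_left hp2 (div_nonneg hε0.le (by linarith))
        have h5 : ε / (1 - ε) * (1 - ε) = ε := by
          have : (1 - ε) ≠ 0 := by linarith
          field_simp
        linarith
    rw [div_le_iff₀ hθ0] at h1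
    linarith
  have hpnn : 0 ≤ pcrit ε 𝒜 := pcrit_nonneg huniv (by linarith)
  have hexp : 1 + Λ / M ≤ θ⁻¹ := by
    rw [hθ, ← Real.exp_neg, neg_neg]
    have := Real.add_one_le_exp (Λ / M)
    linarith
  have h2 : pcrit ε 𝒜 * θ⁻¹ ≤ pcrit (1 - ε) 𝒜 := by
    rw [← div_eq_mul_inv, div_le_iff₀ hθ0]
    linarith
  have h3 : pcrit ε 𝒜 * (1 + Λ / M) ≤ pcrit ε 𝒜 * θ⁻¹ := mul_le_mul_of_nonneg_left hexp hpnn
  unfold width
  linarith

end general

end Vale.Agent.Lib.P063
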