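import Vale.Agent.Lib.P063.Basic

open Finset

namespace Vale.Agent.Lib.P063

section clique
variable {n r : ℕ}

/-- the edges inside a vertex set `S` -/
def cliqueEdges (n r : ℕ) (S : Finset (Fin n)) : Finset (Edge n r) :=
  univ.filter (fun e => e.1 ⊆ S)

theorem mem_cliqueEdges (S : Finset (Fin n)) (e : Edge n r) : e ∈ cliqueEdges n r S ↔ e.1 ⊆ S := by
  simp [cliqueEdges]

theorem card_cliqueEdges (S : Finset (Fin n)) : #(cliqueEdges n r S) = (#S).choose r := by
  rw [← card_powersetCard, ← card_map ⟨Subtype.val, Subtype.val_injective⟩]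
  congr 1
  ext e
  simp only [mem_map, Function.Embedding.coeFn_mk, mem_powersetCard, mem_cliqueEdges]
  constructor
  · rintro ⟨a, ha, rfl⟩
    exact ⟨ha, a.2⟩
  · rintro ⟨h1, h2⟩
    exact ⟨⟨e, h2⟩, h1, rfl⟩

open Classical in
/-- the property of containing a complete `r`-uniform hypergraph on `k` vertices -/
noncomputable def cliqueProp (n r k : ℕ) : Finset (Finset (Edge n r)) :=
  univ.filter (fun H => ∃ S : Finset (Fin n), #S = k ∧ cliqueEdges n r S ⊆ H)

theorem mem_cliqueProp {k : ℕ} (H : Finset (Edge n r)) :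
    H ∈ cliqueProp n r k ↔ ∃ S : Finset (Fin n), #S = k ∧ cliqueEdges n r S ⊆ H := by
  simp [cliqueProp]

theorem cliqueProp_upper (k : ℕ) : IsUpperSet (cliqueProp n r k : Set (Finset (Edge n r))) := by
  intro H H' hHH' hH
  rw [mem_coe, mem_cliqueProp] at hH ⊢
  obtain ⟨S, hS, hSH⟩ := hH
  exact ⟨S, hS, hSH.trans hHH'⟩

theorem permEdge_inv (σ : Equiv.Perm (Fin n)) (e : Edge n r) : permEdge σ (permEdge σ⁻¹ e) = e := by
  apply Subtype.ext
  simp only [permEdge]
  rw [map_map]
  ext x
  simp

theorem cliqueProp_invariant (k : ℕ) : IsHypergraphProperty (cliqueProp n r k) := by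
  intro σ H hH
  rw [mem_cliqueProp] at hH ⊢
  obtain ⟨S, hS, hSH⟩ := hH
  refine ⟨S.map σ.toEmbedding, by rw [card_map]; exact hS, ?_⟩
  intro e he
  rw [mem_cliqueEdges] at he
  rw [mem_image]
  refine ⟨permEdge σ⁻¹ e, hSH ?_, permEdge_inv σ e⟩
  rw [mem_cliqueEdges]
  intro x hx
  simp only [permEdge, mem_map, Equiv.coe_toEmbedding] at hx
  obtain ⟨y, hy, rfl⟩ := hx
  have := he hy
  simp only [mem_map, Equiv.coe_toEmbedding] at this
  obtain ⟨z, hz, rfl⟩ := this
  simpa using hz

theorem univ_mem_cliqueProp {k : ℕ} (hk : k ≤ n) : univ ∈ cliqueProp n r k := by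
  rw [mem_cliqueProp]
  obtain ⟨S, _, hS⟩ := exists_subset_card_eq (s := (univ : Finset (Fin n))) (n := k) (by simpa using hk)
  exact ⟨S, hS, subset_univ _⟩

theorem empty_notMem_cliqueProp {k : ℕ} (hk : r ≤ k) : ∅ ∉ cliqueProp n r k := by
  rw [mem_cliqueProp]
  rintro ⟨S, hS, hSH⟩
  have h1 : #(cliqueEdges n r S) = 0 := by
    rw [subset_empty.1 hSH, card_empty]
  rw [card_cliqueEdges, hS] at h1
  have := Nat.choose_pos hk
  omega

theorem cliqueProp_minterm {k : ℕ} (H : Finset (Edge n r)) (hH : H ∈ cliqueProp n r k) :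
    ∃ S ∈ cliqueProp n r k, S ⊆ H ∧ #S ≤ k.choose r := by
  rw [mem_cliqueProp] at hH
  obtain ⟨S, hS, hSH⟩ := hH
  refine ⟨cliqueEdges n r S, ?_, hSH, ?_⟩
  · rw [mem_cliqueProp]
    exact ⟨S, hS, subset_refl _⟩
  · rw [card_cliqueEdges, hS]

/-- first moment bound -/
theorem mu_cliqueProp_le {k : ℕ} {p : ℝ} (hp0 : 0 ≤ p) (hp1 : p ≤ 1) :
    mu p (cliqueProp n r k) ≤ (n.choose k : ℝ) * p ^ (k.choose r) := by
  classical
  have hw : ∀ H : Finset (Edge n r), 0 ≤ p ^ #H * (1 - p) ^ (Fintype.card (Edge n r) - #H) :=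
    fun H => mul_nonneg (pow_nonneg hp0 _) (pow_nonneg (by linarith) _)
  calc mu p (cliqueProp n r k)
      ≤ ∑ H ∈ cliqueProp n r k, ∑ S ∈ powersetCard k (univ : Finset (Fin n)),
          (if cliqueEdges n r S ⊆ H then p ^ #H * (1 - p) ^ (Fintype.card (Edge n r) - #H) else 0) := by
        unfold mu
        apply sum_le_sum
        intro H hH
        rw [mem_cliqueProp] at hH
        obtain ⟨S, hS, hSH⟩ := hH
        have hmem : S ∈ powersetCard k (univ : Finset (Fin n)) := by
          rw [mem_powersetCard]; exact ⟨subset_univ _, hS⟩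
        have := single_le_sum (f := fun S => if cliqueEdges n r S ⊆ H then
          p ^ #H * (1 - p) ^ (Fintype.card (Edge n r) - #H) else 0)
          (fun S _ => by split_ifs; exact hw H; exact le_refl _) hmem
        simp only [if_pos hSH] at this
        exact this
    _ = ∑ S ∈ powersetCard k (univ : Finset (Fin n)), ∑ H ∈ cliqueProp n r k,
          (if cliqueEdges n r S ⊆ H then p ^ #H * (1 - p) ^ (Fintype.card (Edge n r) - #H) else 0) :=
        sum_comm
    _ ≤ ∑ S ∈ powersetCard k (univ : Finset (Fin n)), mu p (Icc (cliqueEdges n r S) univ) := by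
        apply sum_le_sum
        intro S _
        unfold mu
        rw [← sum_filter]
        apply sum_le_sum_of_subset_of_nonneg
        · intro H hH
          rw [mem_filter] at hH
          rw [mem_Icc]
          exact ⟨hH.2, subset_univ _⟩
        · intro H _ _
          exact hw H
    _ = ∑ S ∈ powersetCard k (univ : Finset (Fin n)), p ^ (k.choose r) := by
        apply sum_congr rfl
        intro S hS
        rw [mem_powersetCard] at hS
        rw [mu_Icc, card_cliqueEdges, hS.2]
    _ = (n.choose k : ℝ) * p ^ (k.choose r) := by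
        rw [sum_const, card_powersetCard, card_univ, Fintype.card_fin, nsmul_eq_mul]

end clique

end Vale.Agent.Lib.P063
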