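import Mathlib

open Finset

namespace Vale.Agent.Lib.P063

/-- `mu p 𝒜` is the probability `μ_p(𝒜)` that a random subset of the finite ground set `α`, containing
each point independently with probability `p`, lies in the family `𝒜`. -/
noncomputable def mu {α : Type*} [Fintype α] (p : ℝ) (𝒜 : Finset (Finset α)) : ℝ :=
  ∑ H ∈ 𝒜, p ^ #H * (1 - p) ^ (Fintype.card α - #H)

/-- `pcrit a 𝒜 = p_a(𝒜) = inf {p ∈ [0,1] : μ_p(𝒜) ≥ a}`. -/
noncomputable def pcrit {α : Type*} [Fintype α] (a : ℝ) (𝒜 : Finset (Finset α)) : ℝ :=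
  sInf {p : ℝ | 0 ≤ p ∧ p ≤ 1 ∧ a ≤ mu p 𝒜}

/-- the threshold width `w_ε(𝒜) = p_{1-ε}(𝒜) - p_ε(𝒜)`. -/
noncomputable def width {α : Type*} [Fintype α] (ε : ℝ) (𝒜 : Finset (Finset α)) : ℝ :=
  pcrit (1 - ε) 𝒜 - pcrit ε 𝒜

/-- `Edge n r` is `E_{n,r}`, the set of `r`-element subsets of the vertex set `Fin n`;
an `r`-uniform hypergraph on `n` vertices is a `Finset (Edge n r)`. -/
abbrev Edge (n r : ℕ) := {e : Finset (Fin n) // #e = r}

/-- the action of a vertex permutation on edges -/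
def permEdge {n r : ℕ} (σ : Equiv.Perm (Fin n)) (e : Edge n r) : Edge n r :=
  ⟨e.1.map σ.toEmbedding, by rw [card_map]; exact e.2⟩

/-- an `r`-uniform hypergraph property: a family of hypergraphs invariant under all permutations of
the vertex set -/
def IsHypergraphProperty {n r : ℕ} (𝒜 : Finset (Finset (Edge n r))) : Prop :=
  ∀ (σ : Equiv.Perm (Fin n)) (H : Finset (Edge n r)), H ∈ 𝒜 → H.image (permEdge σ) ∈ 𝒜

end Vale.Agent.Lib.P063
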